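import Vale.Agent.P141.Hash

/-! A weighted configuration in a lattice gives a lower bound for the constant. -/

namespace Vale.Agent.P141

open Finset

variable {ι : Type} [Fintype ι] [DecidableEq ι] {M : ℕ}

omit [DecidableEq ι] in
theorem exists_push [NeZero M] (c : ι → ZMod M) {q : ℝ} (hq : 0 < q) {W : (ι → ℤ) → ℝ}
    (h0 : ∀ a, 0 ≤ W a) {S : Finset (ι → ℤ)} (h1 : ∑ a ∈ S, W a ^ q ≤ 1) :
    ∃ G : ZMod M → ℝ, (∀ z, 0 ≤ G z) ∧ ∑ z, G z ^ q ≤ M ∧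
      ∀ a ∈ S, (M : ℝ) ^ (1 / q) * W a ≤ G (ph c a) := by
  have nn : ∀ z, 0 ≤ (M : ℝ) * ∑ a ∈ S.filter fun a => ph c a = z, W a ^ q := fun z =>
    mul_nonneg (Nat.cast_nonneg M) (sum_nonneg fun a _ => Real.rpow_nonneg (h0 a) q)
  refine ⟨fun z => (M * ∑ a ∈ S.filter fun a => ph c a = z, W a ^ q) ^ (1 / q),
    fun z => Real.rpow_nonneg (nn z) _, ?_, fun a ha => ?_⟩
  · simp only [one_div, Real.rpow_inv_rpow (nn _) hq.ne']
    rw [← mul_sum, sum_fiberwise]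
    exact mul_le_of_le_one_right (Nat.cast_nonneg M) h1
  · have e : W a = (W a ^ q) ^ (1 / q) := by rw [one_div, Real.rpow_rpow_inv (h0 a) hq.ne']
    rw [e, ← Real.mul_rpow (Nat.cast_nonneg M) (Real.rpow_nonneg (h0 a) q)]
    refine Real.rpow_le_rpow (mul_nonneg (Nat.cast_nonneg M) (Real.rpow_nonneg (h0 a) q))
      (mul_le_mul_of_nonneg_left ?_ (Nat.cast_nonneg M)) (by positivity)
    exact single_le_sum (f := fun a => W a ^ q) (fun a _ => Real.rpow_nonneg (h0 a) q)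
      (mem_filter.2 ⟨ha, rfl⟩)

open Classical in
theorem exists_good [Fact M.Prime] {B K : ℕ} (hB : 2 * B < M) {X : Finset (ι → ℤ)}
    {T : (ι → ℤ) → Finset (ι → ℤ)} (hX : ∀ v ∈ X, ∀ j, |v j| ≤ B)
    (hT : ∀ x ∈ X, ∀ v ∈ T x, ∀ j, |v j| ≤ B) (hK : ∀ x ∈ X, (T x).card ≤ K)
    (hM : 4 * (X.card + K) ≤ M) {P : (ι → ℤ) → (ι → ℤ) → ℝ} (h0 : ∀ x t, 0 ≤ P x t) {γ : ℝ}
    (hγ : 0 < γ) (h1 : ∀ x ∈ X, γ ≤ ∑ t ∈ T x, P x t) :
    ∃ (c : ι → ZMod M) (Y : Finset (ι → ℤ)), Y ⊆ X ∧ (X.card : ℝ) / 2 ≤ Y.card ∧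
      ∀ x ∈ Y, ¬Bad c X x ∧ γ / 2 ≤ ∑ t ∈ (T x).filter fun t => ¬Bad c (T x) t, P x t := by
  have g0 : ∀ x ∈ X, 0 < ∑ t ∈ T x, P x t := fun x hx => hγ.trans_le (h1 x hx)
  obtain ⟨c, hc⟩ := exists_hash hB hX hT hK (ω := fun x t => P x t / ∑ t ∈ T x, P x t)
    (fun x hx t => div_nonneg (h0 x t) (g0 x hx).le)
    fun x hx => by rw [← sum_div, div_self (g0 x hx).ne']
  have M0 : (0 : ℝ) < M := by exact_mod_cast (Fact.out : M.Prime).pos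
  have M4 : ((X.card : ℝ) + K) / M ≤ 1 / 4 := by
    rw [div_le_div_iff₀ M0 (by norm_num)]
    have : (4 : ℝ) * (X.card + K) ≤ M := by exact_mod_cast hM
    linarith
  refine ⟨c, X.filter fun x => ¬Bad c X x ∧
    γ / 2 ≤ ∑ t ∈ (T x).filter fun t => ¬Bad c (T x) t, P x t, filter_subset _ _, ?_,
    fun x hx => (mem_filter.1 hx).2⟩
  have e := card_filter_add_card_filter_not (s := X) fun x => ¬Bad c X x ∧
    γ / 2 ≤ ∑ t ∈ (T x).filter fun t => ¬Bad c (T x) t, P x t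
  generalize hY : (X.filter fun x => ¬(¬Bad c X x ∧
    γ / 2 ≤ ∑ t ∈ (T x).filter fun t => ¬Bad c (T x) t, P x t)) = Y at e
  have sub : Y ⊆ X := hY ▸ filter_subset _ _
  have a1 : ∑ x ∈ Y, (1 / 2 : ℝ) ≤ X.card * (1 / 4) := by
    refine le_trans (sum_le_sum fun x hx => ?_) ((sum_le_sum_of_subset_of_nonneg sub
      fun x hx _ => sum_nonneg fun t _ => ?_).trans (hc.trans
        (mul_le_mul_of_nonneg_left M4 (Nat.cast_nonneg _))))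
    · have hx' := sub hx
      rw [← hY] at hx
      have hx2 := (mem_filter.1 hx).2
      by_cases b : Bad c X x
      · simp only [b, true_or, if_true]
        rw [← sum_div, div_self (g0 x hx').ne']
        norm_num
      · simp only [b, false_or]
        have s1 := sum_filter_add_sum_filter_not (T x) (fun t => Bad c (T x) t) (P x)
        have s2 := not_le.1 fun h => hx2 ⟨b, h⟩
        rw [← sum_filter, ← sum_div, le_div_iff₀ (g0 x hx')]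
        linarith [h1 x hx']
    · split_ifs
      · exact div_nonneg (h0 x t) (g0 x hx).le
      · exact le_rfl
  rw [sum_const, nsmul_eq_mul] at a1
  have e' := congrArg (Nat.cast : ℕ → ℝ) e
  rw [Nat.cast_add] at e'
  linarith

theorem conf_bound [Fact M.Prime] {q₁ q₂ q₃ r C σ : ℝ} (h1 : 0 < q₁) (h2 : 0 < q₂) (h3 : 0 < q₃)
    (hr : 0 < r) (hσ : σ = 1 / q₁ + 1 / q₂ + 1 / q₃ - 1) (hC : Cyc q₁ q₂ q₃ r C)
    {B K : ℕ} (hB : 2 * B < M) {X : Finset (ι → ℤ)}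
    {T : (ι → ℤ) → Finset (ι → ℤ)} (hX : ∀ v ∈ X, ∀ j, |v j| ≤ B)
    (hT : ∀ x ∈ X, ∀ v ∈ T x, ∀ j, |v j| ≤ B) (hK : ∀ x ∈ X, (T x).card ≤ K)
    (hM : 4 * (X.card + K) ≤ M) {W₁ W₂ W₃ : (ι → ℤ) → ℝ} (w1 : ∀ a, 0 ≤ W₁ a) (w2 : ∀ a, 0 ≤ W₂ a)
    (w3 : ∀ a, 0 ≤ W₃ a) {S₁ S₂ S₃ : Finset (ι → ℤ)} (n1 : ∑ a ∈ S₁, W₁ a ^ q₁ ≤ 1)
    (n2 : ∑ a ∈ S₂, W₂ a ^ q₂ ≤ 1) (n3 : ∑ a ∈ S₃, W₃ a ^ q₃ ≤ 1)
    (hS : ∀ x ∈ X, ∀ t ∈ T x, ln 1 x t ∈ S₁ ∧ ln 2 x t ∈ S₂ ∧ ln 3 x t ∈ S₃) {γ : ℝ} (hγ : 0 < γ)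
    (hg : ∀ x ∈ X, γ ≤ ∑ t ∈ T x, W₁ (ln 1 x t) * W₂ (ln 2 x t) * W₃ (ln 3 x t)) :
    X.card / 2 * ((M : ℝ) ^ σ * (γ / 2)) ^ r ≤ C * M := by
  classical
  have M0 : (0 : ℝ) < M := by exact_mod_cast (Fact.out : M.Prime).pos
  obtain ⟨c, Y, sub, hY, good⟩ := exists_good hB hX hT hK hM
    (P := fun x t => W₁ (ln 1 x t) * W₂ (ln 2 x t) * W₃ (ln 3 x t))
    (fun x t => mul_nonneg (mul_nonneg (w1 _) (w2 _)) (w3 _)) hγ hg
  obtain ⟨G₁, g1, m1, l1⟩ := exists_push c h1 w1 n1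
  obtain ⟨G₂, g2, m2, l2⟩ := exists_push c h2 w2 n2
  obtain ⟨G₃, g3, m3, l3⟩ := exists_push c h3 w3 n3
  have nn : ∀ y s, 0 ≤ G₁ (y - s) * G₂ (y - 2 * s) * G₃ (y - 3 * s) := fun y s =>
    mul_nonneg (mul_nonneg (g1 _) (g2 _)) (g3 _)
  refine le_trans ?_ (hC M G₁ G₂ G₃ g1 g2 g3 m1 m2 m3)
  have inj : Set.InjOn (ph c) Y := fun x hx x' hx' e => by
    by_contra ne
    exact (good x' hx').1 ⟨x, sub hx, ne, e⟩
  refine le_trans ?_ (sum_le_sum_of_subset_of_nonneg (subset_univ (Y.image (ph c)))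
    fun y _ _ => Real.rpow_nonneg (div_nonneg (sum_nonneg fun s _ => nn y s) M0.le) r)
  rw [sum_image inj]
  refine le_trans ((mul_le_mul_of_nonneg_right hY (by positivity)).trans_eq
    (by rw [sum_const, nsmul_eq_mul])) (sum_le_sum fun x hx => Real.rpow_le_rpow (by positivity)
      ?_ hr.le)
  have inj' : Set.InjOn (ph c) ((T x).filter fun t => ¬Bad c (T x) t : Finset _) :=
    fun t ht t' ht' e => by
      by_contra ne
      exact (mem_filter.1 (mem_coe.1 ht')).2 ⟨t, (mem_filter.1 (mem_coe.1 ht)).1, ne, e⟩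
  rw [le_div_iff₀ M0]
  refine le_trans ?_ (sum_le_sum_of_subset_of_nonneg (subset_univ
    (((T x).filter fun t => ¬Bad c (T x) t).image (ph c))) fun s _ _ => nn _ s)
  rw [sum_image inj']
  have e : (M : ℝ) ^ σ * M = M ^ (1 / q₁) * M ^ (1 / q₂) * M ^ (1 / q₃) := by
    rw [← Real.rpow_add_one M0.ne', ← Real.rpow_add M0, ← Real.rpow_add M0, hσ, sub_add_cancel]
  rw [mul_right_comm, e]
  refine (mul_le_mul_of_nonneg_left (good x hx).2 (by positivity)).trans ?_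
  rw [mul_sum]
  refine sum_le_sum fun t ht => ?_
  obtain ⟨s1, s2, s3⟩ := hS x (sub hx) t (mem_filter.1 ht).1
  have a1 := l1 _ s1
  have a2 := l2 _ s2
  have a3 := l3 _ s3
  rw [ph_ln] at a1 a2 a3
  push_cast at a1 a2 a3
  rw [one_mul] at a1
  refine le_trans (le_of_eq (by ring)) (mul_le_mul (mul_le_mul a1 a2
    (mul_nonneg (by positivity) (w2 _)) (g1 _)) a3 (mul_nonneg (by positivity) (w3 _))
      (mul_nonneg (g1 _) (g2 _)))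

end Vale.Agent.P141
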