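import Vale.Agent.P141.Defs

/-! From the continuous operator to a discrete averaging inequality. -/

namespace Vale.Agent.P141

open MeasureTheory Filter Topology Finset

/-- a bump at an integer -/
noncomputable def bm (a : ℤ) : ContDiffBump (a : ℝ) := ⟨1 / 4, 1 / 2, by norm_num, by norm_num⟩

/-- a sum of bumps -/
noncomputable def fn (N : ℕ) (Φ : ℤ → ℝ) (y : ℝ) : ℝ := ∑ a ∈ Ico (-(N : ℤ)) 0, Φ a * bm a y

variable {N : ℕ} {Φ : ℤ → ℝ}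

theorem fn_nonneg (h : ∀ a, 0 ≤ Φ a) (y : ℝ) : 0 ≤ fn N Φ y :=
  sum_nonneg fun a _ => mul_nonneg (h a) (bm a).nonneg

theorem le_fn (h : ∀ a, 0 ≤ Φ a) {a : ℤ} (ha : a ∈ Ico (-(N : ℤ)) 0) {y : ℝ}
    (hy : |y - a| ≤ 1 / 4) : Φ a ≤ fn N Φ y := by
  refine le_trans (le_of_eq ?_) (single_le_sum (fun a _ => mul_nonneg (h a) (bm a).nonneg) ha)
  rw [(bm a).one_of_mem_closedBall (by rwa [Metric.mem_closedBall, Real.dist_eq]), mul_one]

theorem bm_zero {a : ℤ} {y : ℝ} (h : 1 / 2 ≤ |y - a|) : bm a y = 0 :=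
  (bm a).zero_of_le_dist h

theorem fn_zero {y : ℝ} (h : y ≤ -N - 1 / 2 ∨ -1 / 2 ≤ y) : fn N Φ y = 0 := by
  refine sum_eq_zero fun a ha => ?_
  have h1 : -(N : ℝ) ≤ a := by exact_mod_cast (mem_Ico.1 ha).1
  have h2 : (a : ℝ) ≤ -1 := by exact_mod_cast Int.le_sub_one_of_lt (mem_Ico.1 ha).2
  rw [bm_zero, mul_zero]
  rcases h with h | h
  · exact le_abs.2 (Or.inr (by linarith))
  · exact le_abs.2 (Or.inl (by linarith))

theorem fn_smooth : ContDiff ℝ (⊤ : ℕ∞) (fn N Φ) :=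
  ContDiff.sum fun a _ => contDiff_const.mul (bm a).contDiff

/-- the sum of bumps as a Schwartz function -/
noncomputable def sf (N : ℕ) (Φ : ℤ → ℝ) : SchwartzMap ℝ ℂ :=
  HasCompactSupport.toSchwartzMap (f := fun y => (fn N Φ y : ℂ))
    (HasCompactSupport.intro (isCompact_Icc (a := -(N : ℝ) - 1 / 2) (b := -1 / 2)) fun y hy => by
      rw [Set.mem_Icc, not_and_or, not_le, not_le] at hy
      rw [fn_zero (hy.imp le_of_lt le_of_lt), Complex.ofReal_zero])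
    (Complex.ofRealCLM.contDiff.comp fn_smooth)

theorem fn_pow (h : ∀ a, 0 ≤ Φ a) {p : ℝ} (hp : 0 < p) (y : ℝ) : fn N Φ y ^ p ≤
    ∑ a ∈ Ico (-(N : ℤ)) 0, (Set.Ioo ((a : ℝ) - 1 / 2) (a + 1 / 2)).indicator (fun _ => Φ a ^ p) y := by
  have nn : ∀ a ∈ Ico (-(N : ℤ)) 0,
      0 ≤ (Set.Ioo ((a : ℝ) - 1 / 2) (a + 1 / 2)).indicator (fun _ => Φ a ^ p) y :=
    fun a _ => Set.indicator_nonneg (fun _ _ => Real.rpow_nonneg (h a) p) y
  by_cases c : ∃ a ∈ Ico (-(N : ℤ)) 0, |y - a| < 1 / 2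
  · obtain ⟨a, ha, c⟩ := c
    obtain ⟨c1, c2⟩ := abs_lt.1 c
    refine le_trans ?_ (single_le_sum nn ha)
    rw [Set.indicator_of_mem (show y ∈ Set.Ioo _ _ from ⟨by linarith, by linarith⟩), fn,
      sum_eq_single_of_mem a ha fun b _ hb => ?_]
    · exact Real.rpow_le_rpow (mul_nonneg (h a) (bm a).nonneg)
        (mul_le_of_le_one_right (h a) (bm a).le_one) hp.le
    · rw [bm_zero, mul_zero]
      rcases lt_or_gt_of_ne hb with e | e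
      · have : (b : ℝ) + 1 ≤ a := by exact_mod_cast e
        exact le_abs.2 (Or.inl (by linarith))
      · have : (a : ℝ) + 1 ≤ b := by exact_mod_cast e
        exact le_abs.2 (Or.inr (by linarith))
  · rw [fn, sum_eq_zero fun a ha => by
      rw [bm_zero (not_lt.1 fun e => c ⟨a, ha, e⟩), mul_zero], Real.zero_rpow hp.ne']
    exact sum_nonneg nn

theorem sf_norm (h : ∀ a, 0 ≤ Φ a) {p L : ℝ} (hp : 0 < p)
    (hL : ∑ a ∈ Ico (-(N : ℤ)) 0, Φ a ^ p ≤ L) :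
    eLpNorm (sf N Φ) (ENNReal.ofReal p) volume ≤ ENNReal.ofReal L ^ (1 / p) := by
  rw [eLpNorm_eq_lintegral_rpow_enorm_toReal (by simpa using hp) ENNReal.ofReal_ne_top,
    ENNReal.toReal_ofReal hp.le]
  refine ENNReal.rpow_le_rpow (le_trans ?_ (ENNReal.ofReal_le_ofReal hL)) (by positivity)
  rw [ENNReal.ofReal_sum_of_nonneg fun a _ => Real.rpow_nonneg (h a) p]
  calc _ ≤ ∫⁻ y, ∑ a ∈ Ico (-(N : ℤ)) 0, (Set.Ioo ((a : ℝ) - 1 / 2) (a + 1 / 2)).indicator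
        (fun _ => ENNReal.ofReal (Φ a ^ p)) y := lintegral_mono fun y => ?_
    _ = _ := ?_
  · have e : ‖sf N Φ y‖ₑ = ENNReal.ofReal (fn N Φ y) := by
      rw [← ofReal_norm]
      exact congrArg _ ((Complex.norm_real _).trans (Real.norm_of_nonneg (fn_nonneg h y)))
    rw [e, ENNReal.ofReal_rpow_of_nonneg (fn_nonneg h y) hp.le]
    refine (ENNReal.ofReal_le_ofReal (fn_pow h hp y)).trans (le_of_eq ?_)
    rw [ENNReal.ofReal_sum_of_nonneg fun a _ =>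
      Set.indicator_nonneg (fun _ _ => Real.rpow_nonneg (h a) p) y]
    refine sum_congr rfl fun a _ => ?_
    simp only [Set.indicator]
    split_ifs
    · rfl
    · exact ENNReal.ofReal_zero
  · rw [lintegral_finsetSum _ fun a _ => measurable_const.indicator measurableSet_Ioo]
    refine sum_congr rfl fun a _ => ?_
    rw [lintegral_indicator_const measurableSet_Ioo, Real.volume_Ioo,
      show (a : ℝ) + 1 / 2 - (a - 1 / 2) = 1 by ring, ENNReal.ofReal_one, mul_one]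

theorem low (H : ℝ → ENNReal) (I : Finset ℤ) {c : ℤ → ℝ} (h0 : ∀ a, 0 ≤ c a)
    (h : ∀ a ∈ I, ∀ t : ℝ, a ≤ t → t < a + 1 / 12 → ENNReal.ofReal (c a) ≤ H t) :
    ENNReal.ofReal ((∑ a ∈ I, c a) / 12) ≤ ∫⁻ t, H t := by
  refine le_trans ?_ (setLIntegral_le_lintegral (⋃ a ∈ I, Set.Ico (a : ℝ) (a + 1 / 12)) H)
  rw [lintegral_biUnion_finset (fun a _ b _ hab => ?_) fun _ _ => measurableSet_Ico, sum_div,
    ENNReal.ofReal_sum_of_nonneg fun a _ => div_nonneg (h0 a) (by norm_num)]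
  · refine sum_le_sum fun a ha => le_trans (le_of_eq ?_)
      (setLIntegral_mono' measurableSet_Ico fun t ht => h a ha t ht.1 ht.2)
    rw [setLIntegral_const, Real.volume_Ico, ← ENNReal.ofReal_mul (h0 a)]
    congr 1
    ring
  · refine Set.disjoint_left.2 fun t h1 h2 => ?_
    rcases lt_or_gt_of_ne hab with e | e
    · have : (a : ℝ) + 1 ≤ b := by exact_mod_cast e
      linarith [h1.2, h2.1]
    · have : (b : ℝ) + 1 ≤ a := by exact_mod_cast e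
      linarith [h1.1, h2.2]

variable {Φ₁ Φ₂ Φ₃ : ℤ → ℝ}

/-- the integrand -/
noncomputable def ig (N : ℕ) (Φ₁ Φ₂ Φ₃ : ℤ → ℝ) (x t : ℝ) : ℝ :=
  fn N Φ₁ (x - t) * fn N Φ₂ (x - 2 * t) * fn N Φ₃ (x - 3 * t) / max t (1 / 2)

theorem ig_zero {x t : ℝ} (hx : 0 ≤ x) (h : t ≤ 1 / 2 ∨ x + N + 1 / 2 ≤ t) :
    fn N Φ₁ (x - t) = 0 := fn_zero (h.symm.imp (fun _ => by linarith) fun _ => by linarith)

theorem ig_int {x : ℝ} (hx : 0 ≤ x) : Integrable (ig N Φ₁ Φ₂ Φ₃ x) := by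
  have c : ∀ Φ, Continuous (fn N Φ) := fun Φ => fn_smooth.continuous
  refine Continuous.integrable_of_hasCompactSupport ?_ (HasCompactSupport.intro
    (isCompact_Icc (a := 1 / 2) (b := x + N + 1 / 2)) fun t ht => ?_)
  · exact ((((c _).comp (by fun_prop)).mul ((c _).comp (by fun_prop))).mul
      ((c _).comp (by fun_prop))).div (by fun_prop) fun t =>
        (lt_max_of_lt_right (by norm_num)).ne'
  · rw [Set.mem_Icc, not_and_or, not_le, not_le] at ht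
    rw [ig, ig_zero hx (ht.imp le_of_lt le_of_lt), zero_mul, zero_mul, zero_div]

theorem THT_eq {x : ℝ} (hx : 0 ≤ x) :
    THT (sf N Φ₁) (sf N Φ₂) (sf N Φ₃) x = ((∫ t, ig N Φ₁ Φ₂ Φ₃ x t : ℝ) : ℂ) := by
  refine Tendsto.limUnder_eq (tendsto_const_nhds.congr' ?_)
  filter_upwards [(mem_nhdsWithin_of_mem_nhds (Iio_mem_nhds (show (0 : ℝ) < 1 / 2 by norm_num))
    |> fun h => prod_mem_prod h (eventually_gt_atTop (x + N + 1 / 2)))] with q hq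
  have e : ∀ t, sf N Φ₁ (x - t) * sf N Φ₂ (x - 2 * t) * sf N Φ₃ (x - 3 * t) / t =
      (ig N Φ₁ Φ₂ Φ₃ x t : ℂ) := fun t => by
    show (fn N Φ₁ (x - t) : ℂ) * fn N Φ₂ (x - 2 * t) * fn N Φ₃ (x - 3 * t) / t = _
    rcases le_total t (1 / 2) with c | c
    · simp [ig, ig_zero hx (Or.inl c)]
    · rw [ig, max_eq_left c]
      push_cast
      rfl
  rw [trunc, ← integral_complex_ofReal, setIntegral_eq_integral_of_forall_compl_eq_zero]
  · simp only [e]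
  · intro t ht
    have h1 : q.1 < 1 / 2 := hq.1
    have h2 : x + N + 1 / 2 < q.2 := hq.2
    rw [e, ig, ig_zero hx, zero_mul, zero_mul, zero_div, Complex.ofReal_zero]
    by_contra hn
    rw [not_or, not_le, not_le] at hn
    exact ht ⟨by rw [abs_of_pos (by linarith)]; linarith, by rw [abs_of_pos (by linarith)]; linarith⟩

theorem THT_ge (h1 : ∀ a, 0 ≤ Φ₁ a) (h2 : ∀ a, 0 ≤ Φ₂ a) (h3 : ∀ a, 0 ≤ Φ₃ a) {M : ℕ} {y : ℤ}
    (hy : y ∈ Ico (0 : ℤ) M) {x : ℝ} (hx : y ≤ x) (hx' : x < y + 1 / 12) :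
    ENNReal.ofReal ((∑ s ∈ Ico (M : ℤ) (2 * M), Φ₁ (y - s) * Φ₂ (y - 2 * s) * Φ₃ (y - 3 * s)) / M
      / 36) ≤ ‖THT (sf (6 * M) Φ₁) (sf (6 * M) Φ₂) (sf (6 * M) Φ₃) x‖ₑ := by
  obtain ⟨y1, y2⟩ := mem_Ico.1 hy
  have x0 : 0 ≤ x := le_trans (by exact_mod_cast y1) hx
  have M0 : (1 : ℝ) ≤ M := by exact_mod_cast (show (1 : ℤ) ≤ M by omega)
  have g0 : ∀ t, 0 ≤ ig (6 * M) Φ₁ Φ₂ Φ₃ x t := fun t => div_nonneg (mul_nonneg (mul_nonneg
    (fn_nonneg h1 _) (fn_nonneg h2 _)) (fn_nonneg h3 _)) (le_max_of_le_right (by norm_num))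
  rw [THT_eq x0, ← ofReal_norm, Complex.norm_real,
    Real.norm_of_nonneg (integral_nonneg g0),
    ofReal_integral_eq_lintegral_ofReal (ig_int x0) (ae_of_all _ g0)]
  refine le_trans (le_of_eq ?_) (low _ (Ico (M : ℤ) (2 * M))
    (c := fun s => Φ₁ (y - s) * Φ₂ (y - 2 * s) * Φ₃ (y - 3 * s) / (3 * M))
    (fun s => div_nonneg (mul_nonneg (mul_nonneg (h1 _) (h2 _)) (h3 _)) (by positivity))
    fun s hs t t1 t2 => ENNReal.ofReal_le_ofReal ?_)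
  · rw [← sum_div]
    congr 1
    field_simp
    ring
  · obtain ⟨s1, s2⟩ := mem_Ico.1 hs
    have s3 : (s : ℝ) ≤ 2 * M := by exact_mod_cast s2.le
    refine div_le_div₀ (mul_nonneg (mul_nonneg (fn_nonneg h1 _) (fn_nonneg h2 _)) (fn_nonneg h3 _))
      (mul_le_mul (mul_le_mul (le_fn h1 ?_ ?_) (le_fn h2 ?_ ?_) (h2 _) (fn_nonneg h1 _))
        (le_fn h3 ?_ ?_) (h3 _) (mul_nonneg (fn_nonneg h1 _) (fn_nonneg h2 _)))
      (lt_max_of_lt_right (by norm_num)) (max_le (by linarith) (by linarith))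
    all_goals first
      | (rw [mem_Ico]; push_cast; omega)
      | (push_cast; rw [abs_le]; constructor <;> linarith)

theorem disc_of_bdd {p₁ p₂ p₃ r : ℝ} (q1 : 0 < p₁) (q2 : 0 < p₂) (q3 : 0 < p₃) (hr : 0 < r)
    (hH : 1 / r = 1 / p₁ + 1 / p₂ + 1 / p₃) (h : BoundedAt p₁ p₂ p₃ r) : ∃ C : ℝ,
    ∀ (M : ℕ) (Φ₁ Φ₂ Φ₃ : ℤ → ℝ), 0 < M → (∀ a, 0 ≤ Φ₁ a) → (∀ a, 0 ≤ Φ₂ a) → (∀ a, 0 ≤ Φ₃ a) →
      ∑ a ∈ Ico (-((6 * M : ℕ) : ℤ)) 0, Φ₁ a ^ p₁ ≤ 12 * M →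
      ∑ a ∈ Ico (-((6 * M : ℕ) : ℤ)) 0, Φ₂ a ^ p₂ ≤ 12 * M →
      ∑ a ∈ Ico (-((6 * M : ℕ) : ℤ)) 0, Φ₃ a ^ p₃ ≤ 12 * M →
      ∑ y ∈ Ico (0 : ℤ) M, ((∑ s ∈ Ico (M : ℤ) (2 * M),
        Φ₁ (y - s) * Φ₂ (y - 2 * s) * Φ₃ (y - 3 * s)) / M) ^ r ≤ C * M := by
  obtain ⟨C, h⟩ := h
  refine ⟨144 * 36 ^ r * C ^ r, fun M Φ₁ Φ₂ Φ₃ hM h1 h2 h3 n1 n2 n3 => ?_⟩
  have M0 : (0 : ℝ) < 12 * M := by positivity
  have a1 := (h _ _ _).trans (mul_le_mul' (mul_le_mul' (mul_le_mul' le_rfl (sf_norm h1 q1 n1))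
    (sf_norm h2 q2 n2)) (sf_norm h3 q3 n3))
  have z : ENNReal.ofReal (12 * M) ≠ 0 := by simpa using hM.ne'
  rw [mul_assoc, mul_assoc, ← mul_assoc (_ ^ _), ← ENNReal.rpow_add _ _ z ENNReal.ofReal_ne_top,
    ← ENNReal.rpow_add _ _ z ENNReal.ofReal_ne_top, ← hH,
    eLpNorm_eq_lintegral_rpow_enorm_toReal (by simpa using hr) ENNReal.ofReal_ne_top,
    ENNReal.toReal_ofReal hr.le] at a1
  have a2 := ENNReal.rpow_le_rpow a1 hr.le
  rw [ENNReal.mul_rpow_of_nonneg _ _ hr.le, ← ENNReal.rpow_mul, ← ENNReal.rpow_mul,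
    one_div_mul_cancel hr.ne', ENNReal.rpow_one, ENNReal.rpow_one, ← ENNReal.ofReal_coe_nnreal,
    ENNReal.ofReal_rpow_of_nonneg C.coe_nonneg hr.le,
    ← ENNReal.ofReal_mul (Real.rpow_nonneg C.coe_nonneg r)] at a2
  have nn : ∀ y : ℤ, 0 ≤ (∑ s ∈ Ico (M : ℤ) (2 * M),
      Φ₁ (y - s) * Φ₂ (y - 2 * s) * Φ₃ (y - 3 * s)) / M := fun y => div_nonneg
    (sum_nonneg fun s _ => mul_nonneg (mul_nonneg (h1 _) (h2 _)) (h3 _)) (Nat.cast_nonneg M)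
  have a3 := (low _ (Ico (0 : ℤ) M) (c := fun y => ((∑ s ∈ Ico (M : ℤ) (2 * M),
      Φ₁ (y - s) * Φ₂ (y - 2 * s) * Φ₃ (y - 3 * s)) / M / 36) ^ r)
    (fun y => Real.rpow_nonneg (div_nonneg (nn y) (by norm_num)) r) fun y hy x x1 x2 => by
      rw [← ENNReal.ofReal_rpow_of_nonneg (div_nonneg (nn y) (by norm_num)) hr.le]
      exact ENNReal.rpow_le_rpow (THT_ge h1 h2 h3 hy x1 x2) hr.le).trans a2
  rw [ENNReal.ofReal_le_ofReal_iff (by positivity)] at a3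
  simp only [Real.div_rpow (nn _) (show (0 : ℝ) ≤ 36 by norm_num), ← sum_div] at a3
  rw [div_div, div_le_iff₀ (by positivity)] at a3
  exact a3.trans (le_of_eq (by ring))

end Vale.Agent.P141
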