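import Vale.Agent.P141.Cont

/-! The discrete averaging inequality on cyclic groups, with larger exponents. -/

namespace Vale.Agent.P141

open Finset

theorem sum_block {M : ℕ} [NeZero M] (f : ZMod M → ℝ) (b : ℤ) :
    ∑ a ∈ Ico b (b + M), f (a : ZMod M) = ∑ z, f z := by
  have inj : Set.InjOn (fun a : ℤ => (a : ZMod M)) (Ico b (b + M) : Finset ℤ) := by
    intro a ha a' ha' h
    obtain ⟨a1, a2⟩ := mem_Ico.1 (mem_coe.1 ha)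
    obtain ⟨a3, a4⟩ := mem_Ico.1 (mem_coe.1 ha')
    have h1 : (M : ℤ) ∣ a' - a := (ZMod.intCast_eq_intCast_iff_dvd_sub a a' M).1 h
    have := Int.eq_zero_of_abs_lt_dvd h1 (abs_lt.2 ⟨by omega, by omega⟩)
    omega
  rw [← sum_image (f := f) inj]
  congr 1
  refine eq_univ_of_card _ ?_
  rw [card_image_of_injOn inj, Int.card_Ico, ZMod.card]
  simp

theorem sum_blocks {M : ℕ} [NeZero M] (f : ZMod M → ℝ) (b : ℤ) (k : ℕ) :
    ∑ a ∈ Ico b (b + (k * M : ℕ)), f (a : ZMod M) = k * ∑ z, f z := by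
  induction k with
  | zero => simp
  | succ k ih =>
    have e : b + (((k + 1) * M : ℕ) : ℤ) = b + (k * M : ℕ) + M := by push_cast; ring
    rw [e, ← Ico_union_Ico_eq_Ico (b := b + (k * M : ℕ)) (by omega) (by omega),
      sum_union (Ico_disjoint_Ico_consecutive _ _ _), ih, sum_block]
    push_cast
    ring

theorem up_le {G p q : ℝ} (hp : 0 < p) (h : p ≤ q) : G ≤ max G 1 ^ (q / p) :=
  (le_max_left G 1).trans (Real.self_le_rpow_of_one_le (le_max_right _ _) ((one_le_div hp).2 h))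

theorem up_sum {M : ℕ} [NeZero M] {G : ZMod M → ℝ} {p q : ℝ} (hp : 0 < p) (h0 : ∀ z, 0 ≤ G z)
    (h : ∑ z, G z ^ q ≤ M) :
    ∑ a ∈ Ico (-((6 * M : ℕ) : ℤ)) 0, (max (G a) 1 ^ (q / p)) ^ p ≤ 12 * M := by
  have e := sum_blocks (fun z => (max (G z) 1 ^ (q / p)) ^ p) (-((6 * M : ℕ) : ℤ)) 6
  rw [neg_add_cancel] at e
  rw [e]
  have h1 : ∑ z, (max (G z) 1 ^ (q / p)) ^ p ≤ ∑ z : ZMod M, (G z ^ q + 1) := sum_le_sum fun z _ => by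
    rw [← Real.rpow_mul (le_max_of_le_right zero_le_one), div_mul_cancel₀ _ hp.ne']
    rcases le_total (G z) 1 with c | c
    · rw [max_eq_right c, Real.one_rpow]
      linarith [Real.rpow_nonneg (h0 z) q]
    · rw [max_eq_left c]
      linarith
  rw [sum_add_distrib, sum_const, card_univ, ZMod.card, nsmul_eq_mul, mul_one] at h1
  push_cast
  linarith

/-- the averaging inequality on cyclic groups -/
def Cyc (q₁ q₂ q₃ r C : ℝ) : Prop :=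
  ∀ (M : ℕ) [NeZero M] (G₁ G₂ G₃ : ZMod M → ℝ), (∀ z, 0 ≤ G₁ z) → (∀ z, 0 ≤ G₂ z) →
    (∀ z, 0 ≤ G₃ z) → ∑ z, G₁ z ^ q₁ ≤ M → ∑ z, G₂ z ^ q₂ ≤ M → ∑ z, G₃ z ^ q₃ ≤ M →
      ∑ y, ((∑ s, G₁ (y - s) * G₂ (y - 2 * s) * G₃ (y - 3 * s)) / M) ^ r ≤ C * M

theorem cyc_of_bdd {p₁ p₂ p₃ q₁ q₂ q₃ r : ℝ} (h1 : 0 < p₁) (h2 : 0 < p₂) (h3 : 0 < p₃) (hr : 0 < r)
    (l1 : p₁ ≤ q₁) (l2 : p₂ ≤ q₂) (l3 : p₃ ≤ q₃) (hH : 1 / r = 1 / p₁ + 1 / p₂ + 1 / p₃)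
    (h : BoundedAt p₁ p₂ p₃ r) : ∃ C, Cyc q₁ q₂ q₃ r C := by
  obtain ⟨C, hC⟩ := disc_of_bdd h1 h2 h3 hr hH h
  refine ⟨C, fun M _ G₁ G₂ G₃ g1 g2 g3 n1 n2 n3 => ?_⟩
  have nn : ∀ (x e : ℝ), 0 ≤ max x 1 ^ e := fun x e =>
    Real.rpow_nonneg (le_max_of_le_right zero_le_one) e
  refine le_trans ?_ (hC M (fun a => max (G₁ a) 1 ^ (q₁ / p₁)) (fun a => max (G₂ a) 1 ^ (q₂ / p₂))
    (fun a => max (G₃ a) 1 ^ (q₃ / p₃)) (Nat.pos_of_ne_zero (NeZero.ne M)) (fun _ => nn _ _)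
    (fun _ => nn _ _) (fun _ => nn _ _) (up_sum h1 g1 n1) (up_sum h2 g2 n2) (up_sum h3 g3 n3))
  rw [← sum_block _ 0, zero_add]
  refine sum_le_sum fun y _ => Real.rpow_le_rpow (div_nonneg (sum_nonneg fun s _ =>
    mul_nonneg (mul_nonneg (g1 _) (g2 _)) (g3 _)) (Nat.cast_nonneg M))
    (div_le_div_of_nonneg_right ?_ (Nat.cast_nonneg M)) hr.le
  rw [← sum_block _ M, ← two_mul]
  refine sum_le_sum fun s _ => ?_
  push_cast
  exact mul_le_mul (mul_le_mul (up_le h1 l1) (up_le h2 l2) (g2 _) (nn _ _)) (up_le h3 l3) (g3 _)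
    (mul_nonneg (nn _ _) (nn _ _))

end Vale.Agent.P141
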