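import Mathlib

/-! The trilinear Hilbert transform with slopes `1, 2, 3`. -/

namespace Vale.Agent.P141

open MeasureTheory Filter Topology

/-- The truncated operator. -/
noncomputable def trunc (f₁ f₂ f₃ : ℝ → ℂ) (ε R x : ℝ) : ℂ :=
  ∫ t in {t : ℝ | ε < |t| ∧ |t| < R}, f₁ (x - t) * f₂ (x - 2 * t) * f₃ (x - 3 * t) / t

/-- The principal value: the limit of the truncations as `ε → 0+`, `R → ∞`. -/
noncomputable def THT (f₁ f₂ f₃ : ℝ → ℂ) (x : ℝ) : ℂ :=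
  limUnder (𝓝[>] (0 : ℝ) ×ˢ atTop) fun q : ℝ × ℝ => trunc f₁ f₂ f₃ q.1 q.2 x

/-- Boundedness at a tuple of finite exponents. -/
def BoundedAt (p₁ p₂ p₃ r : ℝ) : Prop :=
  ∃ C : NNReal, ∀ f₁ f₂ f₃ : SchwartzMap ℝ ℂ,
    eLpNorm (THT f₁ f₂ f₃) (ENNReal.ofReal r) volume ≤
      C * eLpNorm f₁ (ENNReal.ofReal p₁) volume * eLpNorm f₂ (ENNReal.ofReal p₂) volume *
        eLpNorm f₃ (ENNReal.ofReal p₃) volume

end Vale.Agent.P141
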