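import Vale.Agent.P141.Tens

/-! An entropy criterion: a finite distribution gives a half space of exponents. -/

namespace Vale.Agent.P141

open Finset

theorem gibbs {α : Type} (I : Finset α) {n : α → ℕ} {N : ℕ} (hN : ∑ i ∈ I, n i = N) (N0 : 0 < N)
    {L : ℝ} {m : α → ℕ} (h : ∀ i ∈ I, (n i : ℝ) ≤ Real.exp (-L) ^ m i * N) (z : α → ℝ) :
    Real.exp (∑ i ∈ I, (n i / N : ℝ) * (z i + L * m i)) ≤ ∑ i ∈ I, Real.exp (z i) := by
  have N1 : (0 : ℝ) < N := by exact_mod_cast N0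
  refine (convexOn_exp.map_sum_le (t := I) (w := fun i => (n i / N : ℝ))
    (p := fun i => z i + L * m i) (fun i _ => by positivity) ?_ fun _ _ => Set.mem_univ _).trans
    (sum_le_sum fun i hi => ?_)
  · rw [← sum_div, ← Nat.cast_sum, hN, div_self N1.ne']
  · have a : (n i / N : ℝ) ≤ Real.exp (-(L * m i)) := by
      rw [div_le_iff₀ N1, ← neg_mul, mul_comm (-L), Real.exp_nat_mul]
      exact h i hi
    refine (mul_le_mul_of_nonneg_right a (Real.exp_pos _).le).trans (le_of_eq ?_)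
    rw [← Real.exp_add]
    congr 1
    ring

/-- integer data of a distribution, with exponents to the base `a / b` -/
structure Num (a b : ℕ) (D : Finset ℤ) (T : ℤ → Finset ℤ) (S₁ S₂ S₃ : Finset ℤ)
    (k₁ k₂ k₃ j : ℤ → ℕ) (n m : ℤ → ℤ → ℕ) (B K k : ℕ) : Prop where
  a0 : 0 < a
  ab : a < b
  bD : ∀ x ∈ D, |x| ≤ B
  bT : ∀ x ∈ D, ∀ t ∈ T x, |t| ≤ B
  cT : ∀ x ∈ D, (T x).card ≤ K
  K0 : 0 < K
  D0 : D.Nonempty
  n1 : ∑ y ∈ S₁, (a / b : ℚ) ^ k₁ y ≤ 1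
  n2 : ∑ y ∈ S₂, (a / b : ℚ) ^ k₂ y ≤ 1
  n3 : ∑ y ∈ S₃, (a / b : ℚ) ^ k₃ y ≤ 1
  mem : ∀ x ∈ D, ∀ t ∈ T x, x - 1 * t ∈ S₁ ∧ x - 2 * t ∈ S₂ ∧ x - 3 * t ∈ S₃
  lk : ∀ x ∈ D, ∀ t ∈ T x, k ≤ k₁ (x - 1 * t) ∧ k ≤ k₂ (x - 2 * t) ∧ k ≤ k₃ (x - 3 * t)
  Kk : K * a ^ k ≤ b ^ k
  pos : ∀ x ∈ D, 0 < ∑ t ∈ T x, n x t
  hm : ∀ x ∈ D, ∀ t ∈ T x, n x t * b ^ m x t ≤ a ^ m x t * ∑ t ∈ T x, n x t
  hj : ∀ x ∈ D, (∑ t ∈ T x, n x t) * b ^ j x ≤ a ^ j x * ∑ x ∈ D, ∑ t ∈ T x, n x t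

theorem cast_le_pow {a b n m N : ℕ} (b0 : 0 < b) (h : n * b ^ m ≤ a ^ m * N) :
    (n : ℝ) ≤ (a / b : ℝ) ^ m * N := by
  rw [div_pow, div_mul_eq_mul_div, le_div_iff₀ (by positivity)]
  exact_mod_cast h

theorem norm_one {S : Finset ℤ} {k : ℤ → ℕ} {a b : ℕ} {L p : ℝ} (hL : Real.exp (-L) = a / b)
    (hp : 0 < p) (h : ∑ y ∈ S, (a / b : ℚ) ^ k y ≤ 1) :
    ∑ y ∈ S, Real.exp (-L * k y * (1 / p)) ^ p ≤ 1 := by
  have e : ∀ y, Real.exp (-L * k y * (1 / p)) ^ p = (a / b : ℝ) ^ k y := fun y => by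
    rw [← Real.exp_mul, mul_assoc, one_div_mul_cancel hp.ne', mul_one, mul_comm, Real.exp_nat_mul,
      hL]
  simp only [e]
  have h' := (Rat.cast_le (K := ℝ)).2 h
  push_cast at h'
  exact h'

theorem not_bdd_num {a b : ℕ} {D S₁ S₂ S₃ : Finset ℤ} {T : ℤ → Finset ℤ} {k₁ k₂ k₃ j : ℤ → ℕ}
    {n m : ℤ → ℤ → ℕ} {B K k : ℕ} (h : Num a b D T S₁ S₂ S₃ k₁ k₂ k₃ j n m B K k)
    {J Q K₁ K₂ K₃ : ℕ} (hJ : ∑ x ∈ D, (∑ t ∈ T x, n x t) * j x = J)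
    (hQ : ∑ x ∈ D, ∑ t ∈ T x, n x t * m x t = Q)
    (e1 : ∑ x ∈ D, ∑ t ∈ T x, n x t * k₁ (x - 1 * t) = K₁)
    (e2 : ∑ x ∈ D, ∑ t ∈ T x, n x t * k₂ (x - 2 * t) = K₂)
    (e3 : ∑ x ∈ D, ∑ t ∈ T x, n x t * k₃ (x - 3 * t) = K₃)
    {p₁ p₂ p₃ r : ℝ} (h1 : 0 < p₁) (h2 : 0 < p₂) (h3 : 0 < p₃) (hr : 0 < r)
    (hH : 1 / r = 1 / p₁ + 1 / p₂ + 1 / p₃) (r1 : 1 < 1 / r)
    (key : (J : ℝ) - Q < 1 / p₁ * (J - K₁) + 1 / p₂ * (J - K₂) + 1 / p₃ * (J - K₃)) :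
    ¬BoundedAt p₁ p₂ p₃ r := by
  have b0 : 0 < b := h.a0.trans h.ab
  have a0 : (0 : ℝ) < a := by exact_mod_cast h.a0
  have b1 : (0 : ℝ) < b := by exact_mod_cast b0
  obtain ⟨L, hL'⟩ : ∃ L, L = -Real.log (a / b) := ⟨_, rfl⟩
  have hL : Real.exp (-L) = a / b := by rw [hL', neg_neg, Real.exp_log (by positivity)]
  have L0 : 0 < L := by
    rw [hL', neg_pos]
    exact Real.log_neg (by positivity) ((div_lt_one b1).2 (by exact_mod_cast h.ab))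
  obtain ⟨σ, hσ⟩ : ∃ σ, σ = 1 / p₁ + 1 / p₂ + 1 / p₃ - 1 := ⟨_, rfl⟩
  have σ0 : 0 < σ := by linarith
  obtain ⟨z, hz⟩ : ∃ z : ℤ → ℤ → ℝ, z = fun x t => -L * k₁ (x - 1 * t) * (1 / p₁) +
    -L * k₂ (x - 2 * t) * (1 / p₂) + -L * k₃ (x - 3 * t) * (1 / p₃) := ⟨_, rfl⟩
  obtain ⟨u, hu⟩ : ∃ u : ℤ → ℝ, u = fun x =>
    ∑ t ∈ T x, (n x t / (∑ t ∈ T x, n x t : ℕ) : ℝ) * (z x t + L * m x t) := ⟨_, rfl⟩
  have low : ∀ x ∈ D, Real.exp (u x) ≤ ∑ t ∈ T x, Real.exp (z x t) := fun x hx => by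
    rw [hu]
    exact gibbs (T x) rfl (h.pos x hx) (fun t ht => hL ▸ cast_le_pow b0 (h.hm x hx t ht)) _
  have N0 : 0 < ∑ x ∈ D, ∑ t ∈ T x, n x t := sum_pos h.pos h.D0
  have big : 1 < ∑ x ∈ D, Real.exp (u x / σ) := by
    refine lt_of_lt_of_le ?_ (gibbs D rfl N0 (fun x hx => hL ▸ cast_le_pow b0 (h.hj x hx)) _)
    generalize (∑ x ∈ D, ∑ t ∈ T x, n x t) = N at N0
    have N1 : (0 : ℝ) < N := by exact_mod_cast N0
    have e : ∑ x ∈ D, ((∑ t ∈ T x, n x t : ℕ) / N : ℝ) * (u x / σ + L * j x) =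
        L / (N * σ) * (Q + σ * J - (1 / p₁ * K₁ + 1 / p₂ * K₂ + 1 / p₃ * K₃)) := by
      rw [← hJ, ← hQ, ← e1, ← e2, ← e3]
      push_cast
      simp only [mul_sum D, ← sum_add_distrib, ← sum_sub_distrib]
      refine sum_congr rfl fun x hx => ?_
      have n0 : (0 : ℝ) < ∑ t ∈ T x, (n x t : ℝ) := by exact_mod_cast h.pos x hx
      have e4 : (∑ t ∈ T x, (n x t : ℝ)) * u x = L * (∑ t ∈ T x, (n x t : ℝ) * m x t -
          (1 / p₁ * ∑ t ∈ T x, (n x t : ℝ) * k₁ (x - 1 * t) +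
          1 / p₂ * ∑ t ∈ T x, (n x t : ℝ) * k₂ (x - 2 * t) +
          1 / p₃ * ∑ t ∈ T x, (n x t : ℝ) * k₃ (x - 3 * t))) := by
        rw [hu, hz]
        push_cast
        generalize (∑ t ∈ T x, (n x t : ℝ)) = s at n0
        simp only [mul_sum, ← sum_add_distrib, ← sum_sub_distrib]
        refine sum_congr rfl fun t _ => ?_
        field_simp
        ring
      generalize (∑ t ∈ T x, (n x t : ℝ)) = s at e4
      rw [show s / N * (u x / σ + L * j x) = (s * u x + σ * L * s * j x) / (N * σ) by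
        field_simp, e4]
      ring
    rw [e, Real.one_lt_exp_iff]
    refine mul_pos (by positivity) ?_
    rw [hσ]
    linarith
  refine not_bdd (q₁ := p₁) (q₂ := p₂) (q₃ := p₃) (σ := σ) (D := D) (T := T) (S₁ := S₁) (S₂ := S₂)
    (S₃ := S₃) (w₁ := fun y => Real.exp (-L * k₁ y * (1 / p₁)))
    (w₂ := fun y => Real.exp (-L * k₂ y * (1 / p₂))) (w₃ := fun y => Real.exp (-L * k₃ y * (1 / p₃)))
    (v := fun x => Real.exp (u x / σ)) (B := B) (K := K)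
    ⟨h.bD, h.bT, h.cT, fun _ => (Real.exp_pos _).le, fun _ => (Real.exp_pos _).le,
      fun _ => (Real.exp_pos _).le, fun _ => (Real.exp_pos _).le, norm_one hL h1 h.n1,
      norm_one hL h2 h.n2, norm_one hL h3 h.n3, h.mem, fun x hx => ?_, big, fun x hx => ?_⟩
    hσ σ0 h1 h2 h3 hr le_rfl le_rfl le_rfl hH
  · rw [← Real.exp_mul, div_mul_cancel₀ _ σ0.ne']
    simpa only [hz, Real.exp_add] using low x hx
  · refine le_trans ?_ big.le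
    have K0 : (0 : ℝ) < K := by exact_mod_cast h.K0
    have c1 : Real.log K ≤ L * k := by
      have := cast_le_pow (N := 1) h.a0 (h.Kk.trans_eq (mul_one _).symm)
      rw [Real.log_le_iff_le_exp K0, mul_comm, Real.exp_nat_mul,
        show Real.exp L = b / a by rw [← inv_div, ← hL, Real.exp_neg, inv_inv]]
      simpa using this
    have c2 : ∑ t ∈ T x, Real.exp (z x t) ≤ K * Real.exp (-(Real.log K * (σ + 1))) := by
      refine (sum_le_card_nsmul _ _ (Real.exp (-(Real.log K * (σ + 1)))) fun t ht =>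
        Real.exp_le_exp.2 ?_).trans ?_
      swap
      · rw [nsmul_eq_mul]
        exact mul_le_mul_of_nonneg_right (by exact_mod_cast h.cT x hx) (Real.exp_pos _).le
      obtain ⟨d1, d2, d3⟩ := h.lk x hx t ht
      have f : ∀ (c : ℕ) (p : ℝ), 0 < p → k ≤ c → -L * c * (1 / p) ≤ -(Real.log K * (1 / p)) :=
        fun c p hp hc => by
          rw [← neg_mul]
          refine mul_le_mul_of_nonneg_right ?_ (by positivity)
          have : L * k ≤ L * c := mul_le_mul_of_nonneg_left (by exact_mod_cast hc) L0.le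
          linarith
      have := add_le_add (add_le_add (f _ _ h1 d1) (f _ _ h2 d2)) (f _ _ h3 d3)
      rw [hz, hσ]
      linarith
    have c3 := (low x hx).trans c2
    nth_rw 1 [← Real.exp_log K0] at c3
    rw [← Real.exp_add, Real.exp_le_exp] at c3
    nth_rw 1 [← Real.exp_log K0]
    rw [← Real.exp_add, Real.exp_le_one_iff]
    have : u x / σ ≤ -Real.log K := by
      rw [div_le_iff₀ σ0]
      linarith
    linarith

end Vale.Agent.P141
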