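import Vale.Agent.P141.Cyc

/-! Random linear maps from a lattice to a cyclic group of prime order. -/

namespace Vale.Agent.P141

open Finset

variable {ι : Type} [Fintype ι] [DecidableEq ι] {M : ℕ}

/-- a linear map to the cyclic group -/
def ph (c : ι → ZMod M) (v : ι → ℤ) : ZMod M := ∑ j, c j * v j

/-- the point `x - k t` -/
def ln (k : ℤ) (x t : ι → ℤ) : ι → ℤ := fun j => x j - k * t j

omit [DecidableEq ι] in
theorem ph_ln (c : ι → ZMod M) (k : ℤ) (x t : ι → ℤ) : ph c (ln k x t) = ph c x - k * ph c t := by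
  simp only [ph, ln, mul_sum, ← sum_sub_distrib]
  refine sum_congr rfl fun j _ => ?_
  push_cast
  ring

theorem ph_single (c : ι → ZMod M) (j : ι) (l : ZMod M) (v : ι → ℤ) :
    ph (c + Pi.single j l) v = ph c v + l * (v j : ZMod M) := by
  simp only [ph, Pi.add_apply, add_mul, sum_add_distrib]
  congr 1
  rw [sum_eq_single j (fun i _ hi => by rw [Pi.single_eq_of_ne hi, zero_mul]) (by simp),
    Pi.single_eq_same]

theorem card_coll [Fact M.Prime] {B : ℕ} (hB : 2 * B < M) {v w : ι → ℤ} (hv : ∀ j, |v j| ≤ B)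
    (hw : ∀ j, |w j| ≤ B) (hne : v ≠ w) :
    ((univ.filter fun c : ι → ZMod M => ph c v = ph c w).card : ℝ) ≤
      Fintype.card (ι → ZMod M) / M := by
  obtain ⟨j, hj⟩ := Function.ne_iff.1 hne
  have hd : ((v j : ZMod M) - w j) ≠ 0 := fun h => hj <| by
    have h1 := (ZMod.intCast_eq_intCast_iff_dvd_sub _ _ M).1 (sub_eq_zero.1 h)
    have a1 := abs_le.1 (hv j)
    have a2 := abs_le.1 (hw j)
    have := Int.eq_zero_of_abs_lt_dvd h1 (abs_lt.2 ⟨by omega, by omega⟩)
    omega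
  have h := card_le_card_of_injOn
    (s := (univ.filter fun c : ι → ZMod M => ph c v = ph c w) ×ˢ (univ : Finset (ZMod M)))
    (t := univ) (fun q => q.1 + Pi.single j q.2) (fun _ _ => mem_univ _) fun q hq q' hq' e => by
      have a1 := (mem_filter.1 (mem_product.1 (mem_coe.1 hq)).1).2
      have a2 := (mem_filter.1 (mem_product.1 (mem_coe.1 hq')).1).2
      have b1 := congrArg (fun c => ph c v) e
      have b2 := congrArg (fun c => ph c w) e
      simp only [ph_single] at b1 b2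
      have e2 : q.2 = q'.2 := mul_right_cancel₀ hd (by linear_combination b1 - b2 - a1 + a2)
      refine Prod.ext ?_ e2
      simp only [e2] at e
      exact add_right_cancel e
  rw [card_product, card_univ, ZMod.card, card_univ] at h
  have M0 : (0 : ℝ) < M := by exact_mod_cast (Fact.out : M.Prime).pos
  rw [le_div_iff₀ M0]
  exact_mod_cast h

/-- a collision -/
def Bad (c : ι → ZMod M) (X : Finset (ι → ℤ)) (x : ι → ℤ) : Prop :=
  ∃ x' ∈ X, x' ≠ x ∧ ph c x' = ph c x

open Classical in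
theorem card_bad [Fact M.Prime] {B : ℕ} (hB : 2 * B < M) {X : Finset (ι → ℤ)}
    (hX : ∀ v ∈ X, ∀ j, |v j| ≤ B) {x : ι → ℤ} (hx : x ∈ X) :
    ((univ.filter fun c : ι → ZMod M => Bad c X x).card : ℝ) ≤
      X.card * (Fintype.card (ι → ZMod M) / M) := by
  have h : (univ.filter fun c : ι → ZMod M => Bad c X x) ⊆
      (X.erase x).biUnion fun x' => univ.filter fun c : ι → ZMod M => ph c x' = ph c x := by
    intro c hc
    obtain ⟨x', h1, h2, h3⟩ := (mem_filter.1 hc).2
    exact mem_biUnion.2 ⟨x', mem_erase.2 ⟨h2, h1⟩, mem_filter.2 ⟨mem_univ _, h3⟩⟩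
  have h1 := (card_le_card h).trans card_biUnion_le
  calc _ ≤ ∑ x' ∈ X.erase x, ((univ.filter fun c : ι → ZMod M => ph c x' = ph c x).card : ℝ) := by
        exact_mod_cast h1
    _ ≤ ∑ x' ∈ X.erase x, (Fintype.card (ι → ZMod M) / M : ℝ) := sum_le_sum fun x' h' =>
        card_coll hB (hX _ (mem_erase.1 h').2) (hX _ hx) (mem_erase.1 h').1
    _ ≤ _ := by
        rw [sum_const, nsmul_eq_mul]
        exact mul_le_mul_of_nonneg_right (by exact_mod_cast card_erase_le) (by positivity)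

open Classical in
theorem exists_hash [Fact M.Prime] {B K : ℕ} (hB : 2 * B < M) {X : Finset (ι → ℤ)}
    {T : (ι → ℤ) → Finset (ι → ℤ)} (hX : ∀ v ∈ X, ∀ j, |v j| ≤ B)
    (hT : ∀ x ∈ X, ∀ v ∈ T x, ∀ j, |v j| ≤ B) (hK : ∀ x ∈ X, (T x).card ≤ K)
    {ω : (ι → ℤ) → (ι → ℤ) → ℝ} (h0 : ∀ x ∈ X, ∀ t, 0 ≤ ω x t) (h1 : ∀ x ∈ X, ∑ t ∈ T x, ω x t ≤ 1) :
    ∃ c : ι → ZMod M, ∑ x ∈ X, ∑ t ∈ T x, (if Bad c X x ∨ Bad c (T x) t then ω x t else 0) ≤
      X.card * ((X.card + K) / M) := by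
  refine (exists_le_of_sum_le univ_nonempty ?_).imp fun c h => h.2
  rw [sum_comm, sum_const, card_univ, nsmul_eq_mul, mul_left_comm, ← nsmul_eq_mul X.card,
    ← sum_const]
  refine sum_le_sum fun x hx => ?_
  rw [sum_comm]
  have n0 : (0 : ℝ) ≤ Fintype.card (ι → ZMod M) * ((X.card + K) / M) := by positivity
  refine le_trans (sum_le_sum fun t ht => ?_)
    ((mul_sum (T x) (ω x) _).symm.le.trans (mul_le_of_le_one_right n0 (h1 x hx)))
  rw [← sum_filter, sum_const, nsmul_eq_mul, filter_or]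
  refine mul_le_mul_of_nonneg_right ?_ (h0 x hx t)
  have a1 := card_bad hB hX hx
  have a2 := card_bad hB (hT x hx) ht
  have a3 : ((T x).card : ℝ) * (Fintype.card (ι → ZMod M) / M) ≤
      K * (Fintype.card (ι → ZMod M) / M) :=
    mul_le_mul_of_nonneg_right (by exact_mod_cast hK x hx) (by positivity)
  refine le_trans (Nat.cast_le.2 (card_union_le _ _)) ?_
  rw [Nat.cast_add]
  refine (add_le_add a1 (a2.trans a3)).trans (le_of_eq ?_)
  ring

end Vale.Agent.P141
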