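import Vale.Agent.P141.Gibbs

/-! Numerical data for the entropy criterion. -/

namespace Vale.Agent.P141

open Finset

/-- the rows of a table indexed by `x ∈ [-R, R]` -/
def rowAt (L : List (List (ℤ × ℕ × ℕ))) (R x : ℤ) : List (ℤ × ℕ × ℕ) := L.getD (x + R).toNat []

/-- support of a row -/
def rowT (L : List (List (ℤ × ℕ × ℕ))) (R x : ℤ) : Finset ℤ := ((rowAt L R x).map Prod.fst).toFinset

/-- weights -/
def rowN (L : List (List (ℤ × ℕ × ℕ))) (R x t : ℤ) : ℕ := (((rowAt L R x).lookup t).getD (0, 0)).1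

/-- exponents -/
def rowM (L : List (List (ℤ × ℕ × ℕ))) (R x t : ℤ) : ℕ := (((rowAt L R x).lookup t).getD (0, 0)).2

/-- support of a marginal -/
def marS (L : List (ℤ × ℕ)) : Finset ℤ := (L.map Prod.fst).toFinset

/-- exponents of a marginal -/
def marK (L : List (ℤ × ℕ)) (y : ℤ) : ℕ := (L.lookup y).getD 0

/-- exponents of the first marginal -/
def marJ (L : List ℕ) (R x : ℤ) : ℕ := L.getD (x + R).toNat 0

def c1rows : List (List (ℤ × ℕ × ℕ)) :=
  [[(-10, 83, 11), (-8, 1, 4428)], [(-9, 247, 4), (-7, 1, 5510)],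
   [(-10, 25, 2915), (-8, 437, 55)], [(-9, 245, 1026), (-7, 439, 443)],
   [(-8, 977, 222), (-6, 244, 1609)], [(-9, 32, 4290), (-7, 2231, 48), (-5, 79, 3387)],
   [(-8, 420, 2095), (-6, 2999, 131)], [(-7, 2239, 701), (-5, 2279, 683)],
   [(-8, 24, 5749), (-6, 6571, 140), (-4, 964, 2058)],
   [(-7, 408, 3375), (-5, 11305, 55), (-3, 241, 3902)], [(-6, 2930, 1599), (-4, 11582, 225)],
   [(-7, 10, 7501), (-5, 11477, 459), (-3, 6685, 999)],
   [(-6, 230, 4781), (-4, 25109, 91), (-2, 2167, 2539)],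
   [(-5, 2166, 2797), (-3, 32993, 75), (-1, 418, 4441)], [(-4, 11553, 1176), (-2, 25928, 368)],
   [(-5, 77, 6367), (-3, 33511, 294), (-1, 11399, 1372)],
   [(-4, 930, 4154), (-2, 55593, 65), (0, 2832, 3041)],
   [(-3, 6544, 2268), (-1, 56353, 116), (1, 417, 5020)], [(-2, 26030, 834), (0, 33971, 568)],
   [(-3, 237, 5660), (-1, 56716, 185), (1, 11342, 1794)],
   [(-2, 2143, 3574), (0, 72333, 57), (2, 2143, 3574)],
   [(-1, 11342, 1794), (1, 56716, 185), (3, 237, 5660)], [(0, 33971, 568), (2, 26030, 834)],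
   [(-1, 417, 5020), (1, 56353, 116), (3, 6544, 2268)],
   [(0, 2832, 3041), (2, 55593, 65), (4, 930, 4154)],
   [(1, 11399, 1372), (3, 33511, 294), (5, 77, 6367)], [(2, 25928, 368), (4, 11553, 1176)],
   [(1, 418, 4441), (3, 32993, 75), (5, 2166, 2797)],
   [(2, 2167, 2539), (4, 25109, 91), (6, 230, 4781)],
   [(3, 6685, 999), (5, 11477, 459), (7, 10, 7501)], [(4, 11582, 225), (6, 2930, 1599)],
   [(3, 241, 3902), (5, 11305, 55), (7, 408, 3375)],
   [(4, 964, 2058), (6, 6571, 140), (8, 24, 5749)], [(5, 2279, 683), (7, 2239, 701)],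
   [(6, 2999, 131), (8, 420, 2095)], [(5, 79, 3387), (7, 2231, 48), (9, 32, 4290)],
   [(6, 244, 1609), (8, 977, 222)], [(7, 439, 443), (9, 245, 1026)],
   [(8, 437, 55), (10, 25, 2915)], [(7, 1, 5510), (9, 247, 4)], [(8, 1, 4428), (10, 83, 11)]]

def c1j : List ℕ :=
  [9380, 8297, 7676, 7283, 6704, 6053, 5675, 5396, 4882, 4424, 4230, 4005, 3591, 3334, 3282,
   3099, 2822, 2758, 2811, 2682, 2567, 2682, 2811, 2758, 2822, 3099, 3282, 3334, 3591, 4005,
   4230, 4424, 4882, 5396, 5675, 6053, 6704, 7283, 7676, 8297, 9380]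

def c1k1 : List (ℤ × ℕ) :=
  [(-12, 13044), (-10, 6479), (-8, 4605), (-6, 3182), (-4, 2174), (-2, 1574), (0, 1374),
   (2, 1574), (4, 2175), (6, 3182), (8, 4605), (10, 6479), (12, 13044)]

def c1k2 : List (ℤ × ℕ) :=
  [(-5, 6508), (-4, 4650), (-3, 3185), (-2, 2154), (-1, 1573), (0, 1390), (1, 1573), (2, 2153),
   (3, 3185), (4, 4650), (5, 6509)]

def c1k3 : List (ℤ × ℕ) :=
  [(-12, 9290), (-10, 6520), (-8, 4629), (-6, 3183), (-4, 2171), (-2, 1574), (0, 1376),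
   (2, 1573), (4, 2171), (6, 3183), (8, 4629), (10, 6519), (12, 9289)]

theorem c1num : Num 999 1000 (Icc (-20) 20) (rowT c1rows 20) (marS c1k1) (marS c1k2) (marS c1k3)
    (marK c1k1) (marK c1k2) (marK c1k3) (marJ c1j 20) (rowN c1rows 20) (rowM c1rows 20)
    20 3 1374 := by
  constructor <;> decide +kernel

theorem c1bdd {p₁ p₂ p₃ r : ℝ} (h1 : 0 < p₁) (h2 : 0 < p₂) (h3 : 0 < p₃) (hr : 0 < r)
    (hH : 1 / r = 1 / p₁ + 1 / p₂ + 1 / p₃) (r1 : r ≤ 473 / 1000) : ¬BoundedAt p₁ p₂ p₃ r := by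
  have a : 1000 / 473 ≤ 1 / r := by
    rw [div_le_div_iff₀ (by norm_num) hr]
    linarith
  refine not_bdd_num c1num (J := 3147149411) (Q := 444442201) (K₁ := 1868382547)
    (K₂ := 1868384957) (K₃ := 1868367102) (by decide +kernel) (by decide +kernel)
    (by decide +kernel) (by decide +kernel) (by decide +kernel) h1 h2 h3 hr hH (by linarith) ?_
  have a1 : 0 < 1 / p₁ := by positivity
  have a2 : 0 < 1 / p₂ := by positivity
  have a3 : 0 < 1 / p₃ := by positivity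
  push_cast
  linarith

end Vale.Agent.P141
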