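import Vale.Agent.P141.Conf

/-! Tensor powers of a weighted configuration in the integers. -/

namespace Vale.Agent.P141

open Finset Filter Topology

theorem weak_sum {α : Type} [DecidableEq α] (v : α → ℝ) (h0 : ∀ x, 0 ≤ v x) (A : ℝ)
    (X : Finset α) : (∀ y ∈ X, (X.filter fun x => v y ≤ v x).card * v y ≤ A) →
      ∑ x ∈ X, v x ≤ A * (harmonic X.card : ℚ) := by
  induction X using Finset.induction_on_min_value v with
  | empty => simp
  | insert a s ha hm ih =>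
    intro h
    have a1 := ih fun y hy => le_trans (mul_le_mul_of_nonneg_right (Nat.cast_le.2
      (card_le_card (filter_subset_filter _ (subset_insert a s)))) (h0 y)) (h y (mem_insert_of_mem hy))
    have a2 := h a (mem_insert_self a s)
    rw [filter_true_of_mem fun x hx => (mem_insert.1 hx).elim (fun e => e ▸ le_rfl) (hm x),
      card_insert_of_notMem ha] at a2
    rw [sum_insert ha, card_insert_of_notMem ha, harmonic_succ]
    push_cast at a2 ⊢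
    have a3 : v a ≤ A * ((s.card : ℝ) + 1)⁻¹ := by
      rw [← div_eq_mul_inv, le_div_iff₀ (by positivity)]
      linarith
    linarith

theorem exists_level {α : Type} [DecidableEq α] (v : α → ℝ) (h0 : ∀ x, 0 ≤ v x) {X : Finset α}
    (hX : X.Nonempty) : ∃ y ∈ X, ∑ x ∈ X, v x ≤
      (X.filter fun x => v y ≤ v x).card * v y * (1 + Real.log X.card) := by
  obtain ⟨y, hy, h⟩ := exists_max_image X (fun y => (X.filter fun x => v y ≤ v x).card * v y) hX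
  exact ⟨y, hy, (weak_sum v h0 _ X h).trans (mul_le_mul_of_nonneg_left (harmonic_le_one_add_log _)
    (mul_nonneg (Nat.cast_nonneg _) (h0 y)))⟩

theorem no_growth {Z e a c : ℝ} (hZ : 1 < Z) (he : 0 < e) (ha : 0 ≤ a) :
    ¬∀ n : ℕ, (Z ^ n / (1 + n * a)) ^ e ≤ c * (1 + n * a) := fun h => by
  obtain ⟨k, hk⟩ := exists_nat_ge (1 / e)
  obtain ⟨b, hb⟩ : ∃ b, b = max c 1 * (1 + a) := ⟨_, rfl⟩
  have c1 : 1 ≤ max c 1 := le_max_right _ _
  have b0 : 0 < b := by rw [hb]; positivity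
  have t := (tendsto_pow_const_div_const_pow_of_one_lt (k + 1) hZ).const_mul (b ^ (k + 1))
  rw [mul_zero] at t
  obtain ⟨n, n1, n2⟩ := ((t.eventually (gt_mem_nhds zero_lt_one)).and (eventually_ge_atTop 1)).exists
  have n3 : (1 : ℝ) ≤ n := by exact_mod_cast n2
  have L1 : 1 ≤ 1 + n * a := le_add_of_nonneg_right (by positivity)
  have L2 : max c 1 * (1 + n * a) ≤ b * n := by
    rw [hb, mul_assoc]
    exact mul_le_mul_of_nonneg_left (by nlinarith) (by positivity)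
  have L3 : 1 + n * a ≤ b * n := le_trans (le_mul_of_one_le_left (by positivity) c1) L2
  have a1 : Z ^ n / (1 + n * a) ≤ (b * n) ^ k := by
    have z : 0 ≤ Z ^ n / (1 + n * a) := by positivity
    rw [← Real.rpow_rpow_inv z he.ne', ← Real.rpow_natCast (b * n)]
    refine (Real.rpow_le_rpow (Real.rpow_nonneg z e) (((h n).trans (mul_le_mul_of_nonneg_right
      (le_max_left c 1) (by positivity))).trans L2) (inv_nonneg.2 he.le)).trans ?_
    exact Real.rpow_le_rpow_of_exponent_le (L1.trans L3) (by rwa [one_div] at hk)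
  rw [div_le_iff₀ (by positivity)] at a1
  have a2 := a1.trans (mul_le_mul_of_nonneg_left L3 (by positivity))
  rw [← pow_succ, mul_pow] at a2
  rw [← mul_div_assoc, div_lt_one (by positivity)] at n1
  linarith

/-- a weighted configuration in the integers -/
structure Cert (q₁ q₂ q₃ σ : ℝ) (D : Finset ℤ) (T : ℤ → Finset ℤ) (S₁ S₂ S₃ : Finset ℤ)
    (w₁ w₂ w₃ v : ℤ → ℝ) (B K : ℕ) : Prop where
  bD : ∀ x ∈ D, |x| ≤ B
  bT : ∀ x ∈ D, ∀ t ∈ T x, |t| ≤ B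
  cT : ∀ x ∈ D, (T x).card ≤ K
  p1 : ∀ a, 0 ≤ w₁ a
  p2 : ∀ a, 0 ≤ w₂ a
  p3 : ∀ a, 0 ≤ w₃ a
  pv : ∀ a, 0 ≤ v a
  n1 : ∑ a ∈ S₁, w₁ a ^ q₁ ≤ 1
  n2 : ∑ a ∈ S₂, w₂ a ^ q₂ ≤ 1
  n3 : ∑ a ∈ S₃, w₃ a ^ q₃ ≤ 1
  mem : ∀ x ∈ D, ∀ t ∈ T x, x - 1 * t ∈ S₁ ∧ x - 2 * t ∈ S₂ ∧ x - 3 * t ∈ S₃
  low : ∀ x ∈ D, v x ^ σ ≤ ∑ t ∈ T x, w₁ (x - 1 * t) * w₂ (x - 2 * t) * w₃ (x - 3 * t)
  big : 1 < ∑ x ∈ D, v x
  sm : ∀ x ∈ D, K * v x ≤ ∑ x ∈ D, v x

theorem tens_norm {n : ℕ} {S : Finset ℤ} {w : ℤ → ℝ} {q : ℝ} (h0 : ∀ a, 0 ≤ w a)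
    (h : ∑ a ∈ S, w a ^ q ≤ 1) :
    ∑ a ∈ Fintype.piFinset fun _ : Fin n => S, (∏ j, w (a j)) ^ q ≤ 1 := by
  simp only [← Real.finsetProd_rpow _ _ fun i _ => h0 _]
  rw [← prod_univ_sum (fun _ : Fin n => S) fun _ a => w a ^ q]
  exact prod_le_one (fun _ _ => sum_nonneg fun a _ => Real.rpow_nonneg (h0 a) q) fun _ _ => h

theorem fin_arith {N K B M L V Zn C σ r : ℝ} (hN : 1 ≤ N) (hL : 1 ≤ L) (hV : 0 < V) (hB : 0 ≤ B)
    (hσ : 0 < σ) (hr : 0 < r) (hZ : 0 < Zn) (h1 : Zn ≤ N * V * L) (h2 : K * V ≤ Zn) (m1 : N ≤ M)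
    (m2 : M ≤ 2 * (4 * (N + K) + 2 * B)) (h : N / 2 * (M ^ σ * (V ^ σ / 2)) ^ r ≤ C * M) :
    (Zn / L) ^ (σ * r) ≤ 2 ^ r * (2 * max C 0 * (16 + 4 * B)) * L := by
  have k1 : K ≤ N * L := le_of_mul_le_mul_right (by linarith) hV
  have k2 : N ≤ N * L := le_mul_of_one_le_right (by linarith) hL
  have k3 : M ≤ N * L * (16 + 4 * B) := by nlinarith
  have M0 : 0 < M := by linarith
  have a1 : Zn / L ≤ M * V := by
    rw [div_le_iff₀ (by linarith)]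
    exact h1.trans (mul_le_mul_of_nonneg_right (mul_le_mul_of_nonneg_right m1 hV.le) (by linarith))
  have a2 : (M ^ σ * (V ^ σ / 2)) ^ r ≤ 2 * max C 0 * (16 + 4 * B) * L := by
    have := h.trans ((mul_le_mul_of_nonneg_right (le_max_left C 0) M0.le).trans
      (mul_le_mul_of_nonneg_left k3 (le_max_right C 0)))
    refine le_of_mul_le_mul_left (this.trans (le_of_eq (by ring))) (by linarith)
  rw [← mul_div_assoc, ← Real.mul_rpow M0.le hV.le, Real.div_rpow (by positivity) zero_le_two,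
    div_le_iff₀ (by positivity), ← Real.rpow_mul (by positivity)] at a2
  exact (Real.rpow_le_rpow (by positivity) a1 (by positivity)).trans (a2.trans_eq (by ring))

theorem not_cyc {q₁ q₂ q₃ σ r C : ℝ} {D S₁ S₂ S₃ : Finset ℤ} {T : ℤ → Finset ℤ}
    {w₁ w₂ w₃ v : ℤ → ℝ} {B K : ℕ} (h : Cert q₁ q₂ q₃ σ D T S₁ S₂ S₃ w₁ w₂ w₃ v B K)
    (h1 : 0 < q₁) (h2 : 0 < q₂) (h3 : 0 < q₃) (hr : 0 < r) (hσ : σ = 1 / q₁ + 1 / q₂ + 1 / q₃ - 1)
    (σ0 : 0 < σ) : ¬Cyc q₁ q₂ q₃ r C := fun hC => by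
  have D0 : D.Nonempty := nonempty_of_sum_ne_zero (zero_lt_one.trans h.big).ne'
  have D1 : (1 : ℝ) ≤ D.card := by exact_mod_cast D0.card_pos
  refine no_growth h.big (mul_pos σ0 hr) (Real.log_nonneg D1)
    (c := 2 ^ r * (2 * max C 0 * (16 + 4 * B))) fun n => ?_
  have pv : ∀ x : Fin n → ℤ, 0 ≤ ∏ j, v (x j) := fun x => prod_nonneg fun j _ => h.pv _
  obtain ⟨y, hy, hl⟩ := exists_level (fun x : Fin n → ℤ => ∏ j, v (x j)) pv
    (X := Fintype.piFinset fun _ : Fin n => D) (Fintype.piFinset_nonempty.2 fun _ => D0)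
  rw [← prod_univ_sum (fun _ : Fin n => D) fun _ a => v a, prod_const, Fintype.card_piFinset,
    prod_const, card_univ, Fintype.card_fin, Nat.cast_pow, Real.log_pow] at hl
  generalize hX : ((Fintype.piFinset fun _ : Fin n => D).filter
    fun x => ∏ j, v (y j) ≤ ∏ j, v (x j)) = X at hl
  have mX : ∀ x ∈ X, (∀ j, x j ∈ D) ∧ ∏ j, v (y j) ≤ ∏ j, v (x j) := fun x hx => by
    rw [← hX, mem_filter, Fintype.mem_piFinset] at hx
    exact hx
  have X1 : 1 ≤ X.card := card_pos.2 ⟨y, hX ▸ mem_filter.2 ⟨hy, le_rfl⟩⟩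
  have Z0 : 0 < (∑ x ∈ D, v x) ^ n := pow_pos (zero_lt_one.trans h.big) n
  have V0 : 0 < ∏ j, v (y j) := (pv y).lt_of_ne fun e => by
    rw [← e, mul_zero, zero_mul] at hl
    linarith
  obtain ⟨M, hM, M1, M2⟩ := Nat.exists_prime_lt_and_le_two_mul (4 * (X.card + K ^ n) + 2 * B)
    (by omega)
  have := Fact.mk hM
  have key := conf_bound h1 h2 h3 hr hσ hC (M := M) (B := B) (K := K ^ n) (by omega) (X := X)
    (T := fun x => Fintype.piFinset fun j => T (x j)) (fun x hx j => h.bD _ ((mX x hx).1 j))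
    (fun x hx t ht j => h.bT _ ((mX x hx).1 j) _ (Fintype.mem_piFinset.1 ht j))
    (fun x hx => by
      rw [Fintype.card_piFinset]
      exact (prod_le_pow_card _ _ _ fun j _ => h.cT _ ((mX x hx).1 j)).trans_eq (by simp))
    (by omega) (W₁ := fun a => ∏ j, w₁ (a j)) (W₂ := fun a => ∏ j, w₂ (a j))
    (W₃ := fun a => ∏ j, w₃ (a j)) (fun a => prod_nonneg fun j _ => h.p1 _)
    (fun a => prod_nonneg fun j _ => h.p2 _) (fun a => prod_nonneg fun j _ => h.p3 _)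
    (tens_norm h.p1 h.n1) (tens_norm h.p2 h.n2) (tens_norm h.p3 h.n3)
    (fun x hx t ht => by
      have := fun j => h.mem _ ((mX x hx).1 j) _ (Fintype.mem_piFinset.1 ht j)
      exact ⟨Fintype.mem_piFinset.2 fun j => (this j).1, Fintype.mem_piFinset.2 fun j => (this j).2.1,
        Fintype.mem_piFinset.2 fun j => (this j).2.2⟩)
    (Real.rpow_pos_of_pos V0 σ) fun x hx => by
      simp only [← prod_mul_distrib, ln]
      rw [← prod_univ_sum (fun j => T (x j)) fun j t =>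
        w₁ (x j - 1 * t) * w₂ (x j - 2 * t) * w₃ (x j - 3 * t)]
      refine (Real.rpow_le_rpow V0.le (mX x hx).2 σ0.le).trans ?_
      rw [← Real.finsetProd_rpow _ _ fun i _ => h.pv _]
      exact prod_le_prod (fun j _ => Real.rpow_nonneg (h.pv _) σ) fun j _ => h.low _ ((mX x hx).1 j)
  refine fin_arith (K := (K : ℝ) ^ n) (by exact_mod_cast X1)
    (le_add_of_nonneg_right (mul_nonneg (Nat.cast_nonneg n) (Real.log_nonneg D1))) V0
    (Nat.cast_nonneg B) σ0 hr Z0 hl ?_ (by exact_mod_cast (show X.card ≤ M by omega))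
    (by exact_mod_cast M2) key
  have e : ∀ a : ℝ, a ^ n = ∏ _j : Fin n, a := fun a => by simp
  rw [e, e, ← prod_mul_distrib]
  exact prod_le_prod (fun j _ => mul_nonneg (Nat.cast_nonneg K) (h.pv _))
    fun j _ => h.sm _ (Fintype.mem_piFinset.1 hy j)

theorem not_bdd {q₁ q₂ q₃ σ : ℝ} {D S₁ S₂ S₃ : Finset ℤ} {T : ℤ → Finset ℤ}
    {w₁ w₂ w₃ v : ℤ → ℝ} {B K : ℕ} (h : Cert q₁ q₂ q₃ σ D T S₁ S₂ S₃ w₁ w₂ w₃ v B K)
    (hσ : σ = 1 / q₁ + 1 / q₂ + 1 / q₃ - 1) (σ0 : 0 < σ) {p₁ p₂ p₃ r : ℝ} (h1 : 0 < p₁)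
    (h2 : 0 < p₂) (h3 : 0 < p₃) (hr : 0 < r) (l1 : p₁ ≤ q₁) (l2 : p₂ ≤ q₂) (l3 : p₃ ≤ q₃)
    (hH : 1 / r = 1 / p₁ + 1 / p₂ + 1 / p₃) : ¬BoundedAt p₁ p₂ p₃ r := fun hb => by
  obtain ⟨C, hC⟩ := cyc_of_bdd h1 h2 h3 hr l1 l2 l3 hH hb
  exact not_cyc h (h1.trans_le l1) (h2.trans_le l2) (h3.trans_le l3) hr hσ σ0 hC

end Vale.Agent.P141
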